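import Mathlib

/-!
Block K, part K1 of the strong slicing chain.

A family of real symmetric matrices `A a` with non negative weights `w a` acts on matrices by
`X ↦ ∑ w a • (A a * X * A a)`.  If `∑ w a tr (A a D A a D) ≤ tr (D D)` for every positive
semidefinite `D`, then the same quadratic form is bounded by `tr (X Xᵀ)` in absolute value on
all real matrices, symmetric or not.
-/

namespace Vale.Agent.P254.H660

open Matrix Finset MatrixOrder ComplexOrder

variable {n k ι : Type*} [Fintype n] [Fintype k] [Fintype ι]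

/-- weighted arithmetic geometric mean inequality with degenerate weights -/
theorem amgm {x y s : ℝ} (hs : 0 ≤ s) (h : s = 0 → x = 0) :
    |x * y| ≤ (x ^ 2 * s⁻¹ + y ^ 2 * s) / 2 := by
  rcases hs.eq_or_lt with h0 | h0
  · rw [h h0.symm, ← h0]
    simp
  · rw [abs_le]
    have e : s * s⁻¹ = 1 := mul_inv_cancel₀ h0.ne'
    have hi : 0 < s⁻¹ := inv_pos.mpr h0
    constructor
    · nlinarith [mul_nonneg hi.le (sq_nonneg (x + s * y))]
    · nlinarith [mul_nonneg hi.le (sq_nonneg (x - s * y))]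

/-- the trace of `α D α D` for diagonal `D` -/
theorem trace_diag_diag [DecidableEq k] (α β : Matrix k k ℝ) (s t : k → ℝ) :
    (α * diagonal s * β * diagonal t).trace = ∑ i, ∑ j, α i j * β j i * (s j * t i) := by
  have h : ∀ i, (α * diagonal s * β * diagonal t) i i
      = ∑ j, α i j * β j i * (s j * t i) := by
    intro i
    rw [mul_diagonal, mul_apply, Finset.sum_mul]
    refine Finset.sum_congr rfl fun j _ => ?_
    rw [mul_diagonal]
    ring
  simp only [trace, diag_apply, h]

/-- singular value data of a real matrix: `X = W Vᵀ`, `Vᵀ V = 1`, `Wᵀ W` diagonal -/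
theorem exists_svd [DecidableEq k] (X : Matrix n k ℝ) :
    ∃ (W : Matrix n k ℝ) (V : Matrix k k ℝ) (l : k → ℝ), (∀ i, 0 ≤ l i) ∧ X = W * Vᵀ ∧
      Vᵀ * V = 1 ∧ V * Vᵀ = 1 ∧ Wᵀ * W = diagonal l := by
  have hP : (Xᵀ * X).PosSemidef := by
    have := posSemidef_conjTranspose_mul_self X
    rwa [conjTranspose_eq_transpose_of_trivial] at this
  have hH := hP.isHermitian
  set U : Matrix k k ℝ := (hH.eigenvectorUnitary : Matrix k k ℝ) with hU
  have h1 : Uᵀ * U = 1 := by
    have := Unitary.coe_star_mul_self hH.eigenvectorUnitary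
    rwa [star_eq_conjTranspose, conjTranspose_eq_transpose_of_trivial] at this
  have h2 : U * Uᵀ = 1 := mul_eq_one_comm.mp h1
  have h3 : Xᵀ * X = U * diagonal hH.eigenvalues * Uᵀ := by
    have h := hH.spectral_theorem
    rw [Unitary.conjStarAlgAut_apply] at h
    have e : (star (hH.eigenvectorUnitary : Matrix k k ℝ)) = Uᵀ := by
      rw [star_eq_conjTranspose, conjTranspose_eq_transpose_of_trivial]
    rw [e] at h
    have e2 : (RCLike.ofReal ∘ hH.eigenvalues : k → ℝ) = hH.eigenvalues := by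
      funext i; simp
    rw [e2] at h
    exact h
  refine ⟨X * U, U, hH.eigenvalues, hP.eigenvalues_nonneg, ?_, h1, h2, ?_⟩
  · rw [Matrix.mul_assoc, h2, Matrix.mul_one]
  · have e : (X * U)ᵀ * (X * U) = Uᵀ * (Xᵀ * X) * U := by
      rw [transpose_mul]; simp only [Matrix.mul_assoc]
    have e2 : Uᵀ * (U * diagonal hH.eigenvalues * Uᵀ) * U
        = (Uᵀ * U) * diagonal hH.eigenvalues * (Uᵀ * U) := by
      simp only [Matrix.mul_assoc]
    rw [e]
    calc Uᵀ * (Xᵀ * X) * U = Uᵀ * (U * diagonal hH.eigenvalues * Uᵀ) * U :=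
          congrArg (fun M => Uᵀ * M * U) h3
      _ = diagonal hH.eigenvalues := by rw [e2, h1, Matrix.one_mul, Matrix.mul_one]

/-- `|X|` and `|Xᵀ|` and the pointwise domination of the bilinear trace form. -/
theorem exists_abs [DecidableEq n] [DecidableEq k] (X : Matrix n k ℝ) :
    ∃ (P : Matrix n n ℝ) (Q : Matrix k k ℝ), P.PosSemidef ∧ Q.PosSemidef ∧
      (P * P).trace = (X * Xᵀ).trace ∧ (Q * Q).trace = (X * Xᵀ).trace ∧
      ∀ (A : Matrix n n ℝ) (B : Matrix k k ℝ), Aᵀ = A → Bᵀ = B →
        |(A * X * B * Xᵀ).trace| ≤ ((A * P * A * P).trace + (B * Q * B * Q).trace) / 2 := by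
  obtain ⟨W, V, l, hl, hX, hV, hV', hW⟩ := exists_svd X
  have hs : ∀ i, 0 ≤ Real.sqrt (l i) := fun i => Real.sqrt_nonneg _
  have hss : ∀ i, Real.sqrt (l i) * Real.sqrt (l i) = l i := fun i => Real.mul_self_sqrt (hl i)
  have hcol : ∀ j, Real.sqrt (l j) = 0 → ∀ i, W i j = 0 := by
    intro j hj
    have h0 : l j = 0 := by rw [← hss j, hj, mul_zero]
    have h1 : ∑ i, W i j * W i j = 0 := by
      have := congrFun (congrFun hW j) j
      rw [mul_apply, diagonal_apply_eq, h0] at this
      simpa [transpose_apply] using this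
    intro i
    have := (Finset.sum_eq_zero_iff_of_nonneg (fun i _ => mul_self_nonneg (W i j))).mp h1 i
      (Finset.mem_univ i)
    exact mul_self_eq_zero.mp this
  have hXX : (X * Xᵀ).trace = ∑ i, l i := by
    rw [hX, transpose_mul, transpose_transpose, Matrix.mul_assoc W, ← Matrix.mul_assoc Vᵀ, hV,
      Matrix.one_mul, trace_mul_comm, hW, trace_diagonal]
  refine ⟨W * diagonal (fun i => (Real.sqrt (l i))⁻¹) * Wᵀ,
    V * diagonal (fun i => Real.sqrt (l i)) * Vᵀ, ?_, ?_, ?_, ?_, ?_⟩
  · have h := (PosSemidef.diagonal (n := k) (R := ℝ)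
      (d := fun i => (Real.sqrt (l i))⁻¹) fun i => inv_nonneg.mpr (hs i)).mul_mul_conjTranspose_same W
    rwa [conjTranspose_eq_transpose_of_trivial] at h
  · have h := (PosSemidef.diagonal (n := k) (R := ℝ)
      (d := fun i => Real.sqrt (l i)) hs).mul_mul_conjTranspose_same V
    rwa [conjTranspose_eq_transpose_of_trivial] at h
  · rw [hXX, trace_mul_comm]
    have e : W * diagonal (fun i => (Real.sqrt (l i))⁻¹) * Wᵀ
        * (W * diagonal (fun i => (Real.sqrt (l i))⁻¹) * Wᵀ)
        = W * (diagonal (fun i => (Real.sqrt (l i))⁻¹) * (Wᵀ * W)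
          * diagonal (fun i => (Real.sqrt (l i))⁻¹)) * Wᵀ := by
      simp only [Matrix.mul_assoc]
    rw [e, hW, trace_mul_comm, ← Matrix.mul_assoc, hW, diagonal_mul_diagonal,
      diagonal_mul_diagonal, diagonal_mul_diagonal, trace_diagonal]
    refine Finset.sum_congr rfl fun i _ => ?_
    rcases (hs i).eq_or_lt with h0 | h0
    · have : l i = 0 := by rw [← hss i, ← h0, mul_zero]
      rw [this]; simp
    · have e1 : Real.sqrt (l i) * (Real.sqrt (l i))⁻¹ = 1 := mul_inv_cancel₀ h0.ne'
      calc l i * ((Real.sqrt (l i))⁻¹ * l i * (Real.sqrt (l i))⁻¹)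
          = (Real.sqrt (l i) * Real.sqrt (l i)) * ((Real.sqrt (l i))⁻¹
            * (Real.sqrt (l i) * Real.sqrt (l i)) * (Real.sqrt (l i))⁻¹) := by rw [hss]
        _ = (Real.sqrt (l i) * Real.sqrt (l i)) * (Real.sqrt (l i) * (Real.sqrt (l i))⁻¹) ^ 2 := by
            ring
        _ = l i := by rw [e1, hss]; ring
  · rw [hXX]
    have e : V * diagonal (fun i => Real.sqrt (l i)) * Vᵀ
        * (V * diagonal (fun i => Real.sqrt (l i)) * Vᵀ)
        = V * (diagonal (fun i => Real.sqrt (l i)) * (Vᵀ * V)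
          * diagonal (fun i => Real.sqrt (l i))) * Vᵀ := by
      simp only [Matrix.mul_assoc]
    rw [e, hV, Matrix.mul_one, trace_mul_comm, ← Matrix.mul_assoc, hV, Matrix.one_mul,
      diagonal_mul_diagonal, trace_diagonal]
    exact Finset.sum_congr rfl fun i _ => hss i
  · intro A B hA hB
    have hα : (Wᵀ * A * W)ᵀ = Wᵀ * A * W := by
      rw [transpose_mul, transpose_mul, transpose_transpose, hA, Matrix.mul_assoc]
    have hβ : (Vᵀ * B * V)ᵀ = Vᵀ * B * V := by
      rw [transpose_mul, transpose_mul, transpose_transpose, hB, Matrix.mul_assoc]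
    set α := Wᵀ * A * W with hαd
    set β := Vᵀ * B * V with hβd
    have sα : ∀ i j, α j i = α i j := fun i j => congrFun (congrFun hα i) j
    have sβ : ∀ i j, β j i = β i j := fun i j => congrFun (congrFun hβ i) j
    have h0 : ∀ i j, Real.sqrt (l j) = 0 → α i j = 0 := by
      intro i j hj
      rw [hαd, mul_apply]
      exact Finset.sum_eq_zero fun m _ => by rw [hcol j hj m, mul_zero]
    have e1 : (A * X * B * Xᵀ).trace = ∑ i, ∑ j, α i j * β i j := by
      have : A * X * B * Xᵀ = A * W * (β * Wᵀ) := by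
        rw [hX, transpose_mul, transpose_transpose, hβd]
        simp only [Matrix.mul_assoc]
      rw [this, ← Matrix.mul_assoc, trace_mul_comm]
      have e : Wᵀ * (A * W * β) = α * β := by
        rw [hαd]; simp only [Matrix.mul_assoc]
      rw [e]
      simp only [trace, diag_apply, mul_apply]
      exact Finset.sum_congr rfl fun i _ => Finset.sum_congr rfl fun j _ => by rw [sβ i j]
    have e2 : (A * (W * diagonal (fun i => (Real.sqrt (l i))⁻¹) * Wᵀ) * A
        * (W * diagonal (fun i => (Real.sqrt (l i))⁻¹) * Wᵀ)).trace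
        = ∑ i, ∑ j, α i j ^ 2 * ((Real.sqrt (l i))⁻¹ * (Real.sqrt (l j))⁻¹) := by
      have : A * (W * diagonal (fun i => (Real.sqrt (l i))⁻¹) * Wᵀ) * A
          * (W * diagonal (fun i => (Real.sqrt (l i))⁻¹) * Wᵀ)
          = (A * W * diagonal (fun i => (Real.sqrt (l i))⁻¹) * α
            * diagonal (fun i => (Real.sqrt (l i))⁻¹)) * Wᵀ := by
        rw [hαd]; simp only [Matrix.mul_assoc]
      rw [this, trace_mul_comm]
      have : Wᵀ * (A * W * diagonal (fun i => (Real.sqrt (l i))⁻¹) * α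
            * diagonal (fun i => (Real.sqrt (l i))⁻¹))
          = α * diagonal (fun i => (Real.sqrt (l i))⁻¹) * α
            * diagonal (fun i => (Real.sqrt (l i))⁻¹) := by
        rw [hαd]; simp only [Matrix.mul_assoc]
      rw [this, trace_diag_diag]
      exact Finset.sum_congr rfl fun i _ => Finset.sum_congr rfl fun j _ => by
        rw [sα i j]; ring
    have e3 : (B * (V * diagonal (fun i => Real.sqrt (l i)) * Vᵀ) * B
        * (V * diagonal (fun i => Real.sqrt (l i)) * Vᵀ)).trace
        = ∑ i, ∑ j, β i j ^ 2 * (Real.sqrt (l i) * Real.sqrt (l j)) := by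
      have : B * (V * diagonal (fun i => Real.sqrt (l i)) * Vᵀ) * B
          * (V * diagonal (fun i => Real.sqrt (l i)) * Vᵀ)
          = (B * V * diagonal (fun i => Real.sqrt (l i)) * β
            * diagonal (fun i => Real.sqrt (l i))) * Vᵀ := by
        rw [hβd]; simp only [Matrix.mul_assoc]
      rw [this, trace_mul_comm]
      have : Vᵀ * (B * V * diagonal (fun i => Real.sqrt (l i)) * β
            * diagonal (fun i => Real.sqrt (l i)))
          = β * diagonal (fun i => Real.sqrt (l i)) * β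
            * diagonal (fun i => Real.sqrt (l i)) := by
        rw [hβd]; simp only [Matrix.mul_assoc]
      rw [this, trace_diag_diag]
      exact Finset.sum_congr rfl fun i _ => Finset.sum_congr rfl fun j _ => by
        rw [sβ i j]; ring
    rw [e1, e2, e3, ← Finset.sum_add_distrib, Finset.sum_div]
    refine (Finset.abs_sum_le_sum_abs _ _).trans (Finset.sum_le_sum fun i _ => ?_)
    rw [← Finset.sum_add_distrib, Finset.sum_div]
    refine (Finset.abs_sum_le_sum_abs _ _).trans (Finset.sum_le_sum fun j _ => ?_)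
    have := amgm (x := α i j) (y := β i j) (s := Real.sqrt (l i) * Real.sqrt (l j))
      (mul_nonneg (hs i) (hs j)) (by
        intro h
        rcases mul_eq_zero.mp h with h | h
        · rw [← sα i j]; exact h0 j i h
        · exact h0 i j h)
    rwa [mul_inv] at this

/-- rectangular version: two contractive families, one on each side -/
theorem cp_bound_rect (w : ι → ℝ) (hw : ∀ a, 0 ≤ w a) (A : ι → Matrix n n ℝ)
    (B : ι → Matrix k k ℝ) (hA : ∀ a, (A a)ᵀ = A a) (hB : ∀ a, (B a)ᵀ = B a)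
    (hKA : ∀ D : Matrix n n ℝ, D.PosSemidef →
      ∑ a, w a * (A a * D * A a * D).trace ≤ (D * D).trace)
    (hKB : ∀ D : Matrix k k ℝ, D.PosSemidef →
      ∑ a, w a * (B a * D * B a * D).trace ≤ (D * D).trace) (X : Matrix n k ℝ) :
    |∑ a, w a * (A a * X * B a * Xᵀ).trace| ≤ (X * Xᵀ).trace := by
  classical
  obtain ⟨P, Q, hP, hQ, hPP, hQQ, h⟩ := exists_abs X
  calc |∑ a, w a * (A a * X * B a * Xᵀ).trace|
      ≤ ∑ a, |w a * (A a * X * B a * Xᵀ).trace| := Finset.abs_sum_le_sum_abs _ _
    _ ≤ ∑ a, (w a * (A a * P * A a * P).trace + w a * (B a * Q * B a * Q).trace) / 2 := by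
        refine Finset.sum_le_sum fun a _ => ?_
        rw [abs_mul, abs_of_nonneg (hw a)]
        have := mul_le_mul_of_nonneg_left (h (A a) (B a) (hA a) (hB a)) (hw a)
        linarith
    _ = (∑ a, w a * (A a * P * A a * P).trace + ∑ a, w a * (B a * Q * B a * Q).trace) / 2 := by
        rw [← Finset.sum_div, Finset.sum_add_distrib]
    _ ≤ (X * Xᵀ).trace := by
        have h1 := hKA P hP
        have h2 := hKB Q hQ
        linarith

/-- K1: contraction on all real matrices -/
theorem cp_bound (w : ι → ℝ) (hw : ∀ a, 0 ≤ w a) (A : ι → Matrix n n ℝ)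
    (hA : ∀ a, (A a)ᵀ = A a)
    (hK : ∀ D : Matrix n n ℝ, D.PosSemidef →
      ∑ a, w a * (A a * D * A a * D).trace ≤ (D * D).trace) (X : Matrix n n ℝ) :
    |∑ a, w a * (A a * X * A a * Xᵀ).trace| ≤ (X * Xᵀ).trace :=
  cp_bound_rect w hw A A hA hA hK hK X

/-- symmetry of the bilinear form -/
theorem trace_swap (A X Y : Matrix n n ℝ) (hA : Aᵀ = A) :
    (A * X * A * Yᵀ).trace = (A * Y * A * Xᵀ).trace := by
  have e : (A * X * A * Yᵀ)ᵀ = Y * A * Xᵀ * A := by
    simp only [transpose_mul, transpose_transpose, hA, Matrix.mul_assoc]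
  rw [← trace_transpose (A * X * A * Yᵀ), e, trace_mul_comm]
  simp only [Matrix.mul_assoc]

/-- expansion of the quadratic form on a sum -/
theorem form_add (A X Y : Matrix n n ℝ) (hA : Aᵀ = A) :
    (A * (X + Y) * A * (X + Y)ᵀ).trace = (A * X * A * Xᵀ).trace + 2 * (A * X * A * Yᵀ).trace
      + (A * Y * A * Yᵀ).trace := by
  have h := trace_swap A X Y hA
  simp only [transpose_add, Matrix.mul_add, Matrix.add_mul, trace_add]
  linarith

/-- expansion of the quadratic form on a difference -/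
theorem form_sub (A X Y : Matrix n n ℝ) (hA : Aᵀ = A) :
    (A * (X - Y) * A * (X - Y)ᵀ).trace = (A * X * A * Xᵀ).trace - 2 * (A * X * A * Yᵀ).trace
      + (A * Y * A * Yᵀ).trace := by
  have h := trace_swap A X Y hA
  simp only [transpose_sub, Matrix.mul_sub, Matrix.sub_mul, trace_sub]
  linarith

/-- polarised form of K1 -/
theorem cp_bound2 (w : ι → ℝ) (hw : ∀ a, 0 ≤ w a) (A : ι → Matrix n n ℝ)
    (hA : ∀ a, (A a)ᵀ = A a)
    (hK : ∀ D : Matrix n n ℝ, D.PosSemidef →
      ∑ a, w a * (A a * D * A a * D).trace ≤ (D * D).trace) (X Y : Matrix n n ℝ) :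
    |∑ a, w a * (A a * X * A a * Yᵀ).trace| ≤ ((X * Xᵀ).trace + (Y * Yᵀ).trace) / 2 := by
  classical
  have h1 := abs_le.mp (cp_bound w hw A hA hK (X + Y))
  have h2 := abs_le.mp (cp_bound w hw A hA hK (X - Y))
  have e1 : ∑ a, w a * (A a * (X + Y) * A a * (X + Y)ᵀ).trace
      = ∑ a, w a * (A a * X * A a * Xᵀ).trace + 2 * ∑ a, w a * (A a * X * A a * Yᵀ).trace
        + ∑ a, w a * (A a * Y * A a * Yᵀ).trace := by
    rw [Finset.mul_sum, ← Finset.sum_add_distrib, ← Finset.sum_add_distrib]
    exact Finset.sum_congr rfl fun a _ => by rw [form_add _ _ _ (hA a)]; ring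
  have e2 : ∑ a, w a * (A a * (X - Y) * A a * (X - Y)ᵀ).trace
      = ∑ a, w a * (A a * X * A a * Xᵀ).trace - 2 * ∑ a, w a * (A a * X * A a * Yᵀ).trace
        + ∑ a, w a * (A a * Y * A a * Yᵀ).trace := by
    rw [Finset.mul_sum, ← Finset.sum_sub_distrib, ← Finset.sum_add_distrib]
    exact Finset.sum_congr rfl fun a _ => by rw [form_sub _ _ _ (hA a)]; ring
  have hs : (X * Yᵀ).trace = (Y * Xᵀ).trace := by
    rw [← trace_transpose (X * Yᵀ)]; simp only [transpose_mul, transpose_transpose]
  have t1 : ((X + Y) * (X + Y)ᵀ).trace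
      = (X * Xᵀ).trace + 2 * (X * Yᵀ).trace + (Y * Yᵀ).trace := by
    simp only [transpose_add, Matrix.mul_add, Matrix.add_mul, trace_add]; linarith
  have t2 : ((X - Y) * (X - Y)ᵀ).trace
      = (X * Xᵀ).trace - 2 * (X * Yᵀ).trace + (Y * Yᵀ).trace := by
    simp only [transpose_sub, Matrix.mul_sub, Matrix.sub_mul, trace_sub]; linarith
  rw [e1, t1] at h1
  rw [e2, t2] at h2
  rw [abs_le]
  constructor <;> linarith [h1.1, h1.2, h2.1, h2.2]

/-- the quadratic form `tr (X Xᵀ)` is non negative -/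
theorem frob_nonneg (X : Matrix n k ℝ) : 0 ≤ (X * Xᵀ).trace := by
  simp only [trace, diag_apply, mul_apply, transpose_apply]
  exact Finset.sum_nonneg fun i _ => Finset.sum_nonneg fun j _ => mul_self_nonneg _

/-- polarised form of K1 with square roots -/
theorem cp_bound_sqrt (w : ι → ℝ) (hw : ∀ a, 0 ≤ w a) (A : ι → Matrix n n ℝ)
    (hA : ∀ a, (A a)ᵀ = A a)
    (hK : ∀ D : Matrix n n ℝ, D.PosSemidef →
      ∑ a, w a * (A a * D * A a * D).trace ≤ (D * D).trace) (X Y : Matrix n n ℝ) :
    |∑ a, w a * (A a * X * A a * Yᵀ).trace|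
      ≤ Real.sqrt ((X * Xᵀ).trace) * Real.sqrt ((Y * Yᵀ).trace) := by
  have hx := frob_nonneg X
  have hy := frob_nonneg Y
  set x := Real.sqrt ((X * Xᵀ).trace) with hxd
  set y := Real.sqrt ((Y * Yᵀ).trace) with hyd
  have hx0 : 0 ≤ x := Real.sqrt_nonneg _
  have hy0 : 0 ≤ y := Real.sqrt_nonneg _
  have hx2 : x * x = (X * Xᵀ).trace := Real.mul_self_sqrt hx
  have hy2 : y * y = (Y * Yᵀ).trace := Real.mul_self_sqrt hy
  set b := ∑ a, w a * (A a * X * A a * Yᵀ).trace with hb
  have key : ∀ t : ℝ, 0 < t → |b| ≤ (t * (x * x) + t⁻¹ * (y * y)) / 2 := by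
    intro t ht
    have hr := Real.sqrt_pos.mpr ht
    have hrr : Real.sqrt t * Real.sqrt t = t := Real.mul_self_sqrt ht.le
    have h := cp_bound2 w hw A hA hK (Real.sqrt t • X) ((Real.sqrt t)⁻¹ • Y)
    have e : ∑ a, w a * (A a * (Real.sqrt t • X) * A a * ((Real.sqrt t)⁻¹ • Y)ᵀ).trace = b := by
      rw [hb]
      refine Finset.sum_congr rfl fun a _ => ?_
      simp only [transpose_smul, Matrix.mul_smul, Matrix.smul_mul, trace_smul, smul_eq_mul]
      field_simp
    have e1 : ((Real.sqrt t • X) * (Real.sqrt t • X)ᵀ).trace = t * (x * x) := by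
      simp only [transpose_smul, Matrix.mul_smul, Matrix.smul_mul, trace_smul, smul_eq_mul]
      rw [← mul_assoc, hrr, hx2]
    have e2 : (((Real.sqrt t)⁻¹ • Y) * ((Real.sqrt t)⁻¹ • Y)ᵀ).trace = t⁻¹ * (y * y) := by
      simp only [transpose_smul, Matrix.mul_smul, Matrix.smul_mul, trace_smul, smul_eq_mul]
      rw [← mul_assoc, ← mul_inv, hrr, hy2]
    rwa [e, e1, e2] at h
  rcases hx0.eq_or_lt with h0 | h0
  · rw [← h0, zero_mul]
    by_contra hc
    replace hc := not_le.mp hc
    have ht : 0 < y * y / |b| + 1 := by positivity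
    have := key _ ht
    rw [← h0, mul_zero, mul_zero, zero_add] at this
    have h1 : (y * y / |b| + 1)⁻¹ * (y * y) ≤ |b| := by
      rw [inv_mul_le_iff₀ ht, add_mul, one_mul, div_mul_cancel₀ _ hc.ne']
      linarith
    linarith
  · rcases hy0.eq_or_lt with h1 | h1
    · rw [← h1, mul_zero]
      by_contra hc
      replace hc := not_le.mp hc
      have hxx : 0 < x * x := mul_pos h0 h0
      have := key (|b| / (x * x)) (div_pos hc hxx)
      rw [← h1, mul_zero, mul_zero, add_zero, div_mul_cancel₀ _ hxx.ne'] at this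
      linarith
    · have := key (y / x) (div_pos h1 h0)
      have e : y / x * (x * x) + (y / x)⁻¹ * (y * y) = 2 * (x * y) := by
        field_simp
        ring
      rw [e] at this
      linarith

end Vale.Agent.P254.H660
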